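import Vale.Agent.Lib.P125.Sharp

/-!
# P125: Markov type with a small constant forces J-convexity (hence superreflexivity)

If a real normed space has Markov type `p > 1` with a constant `K < 2 ^ (1 - 1 / p)`
(for `p = 2`: `K < sqrt 2`), then it is J-convex in the sense of James.
-/

namespace Vale.Agent.Results.P125.SmallConstantJConvex

open Vale.Agent.Lib.P125

theorem result (X : Type*) [NormedAddCommGroup X] [NormedSpace ℝ X] (p K : ℝ) (hp : 1 < p)
    (hK : 0 < K) (hX : HasMarkovType X p K) (hsmall : K < 2 ^ (1 - 1 / p)) :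
    ∃ (n : ℕ) (ε : ℝ), 2 ≤ n ∧ 0 < ε ∧ ∀ x : Fin n → X, (∀ i, ‖x i‖ ≤ 1) →
      ∃ k : Fin n, ‖∑ i, (if i ≤ k then x i else - x i)‖ ≤ n - ε :=
  jconvex_of_lt hp hK hX hsmall

end Vale.Agent.Results.P125.SmallConstantJConvex
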