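import Vale.Agent.Lib.P125.Sharp

/-!
# P125: Markov type with a small constant forces uniform non-squareness

If a real normed space has Markov type `p > 1` with a constant `K` such that
`K ^ p < 3 * 2 ^ p / 8` (for `p = 2`: `K ^ 2 < 3 / 2`), then it is uniformly non-square in the
sense of James.
-/

namespace Vale.Agent.Results.P125.SmallConstantNonSquare

open Vale.Agent.Lib.P125

theorem result (X : Type*) [NormedAddCommGroup X] [NormedSpace ℝ X] (p K : ℝ) (hp : 1 < p)
    (_hK : 0 < K) (hX : HasMarkovType X p K) (hsmall : K ^ p < 3 * 2 ^ p / 8) :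
    ∃ δ : ℝ, 0 < δ ∧ ∀ x y : X, ‖x‖ ≤ 1 → ‖y‖ ≤ 1 → ‖x + y‖ ≤ 2 - δ ∨ ‖x - y‖ ≤ 2 - δ :=
  nonsquare_sharp hp hX hsmall

end Vale.Agent.Results.P125.SmallConstantNonSquare
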