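import Vale.Agent.Lib.P125.Sharp

/-!
# P125: Markov type with a small constant (four results in one statement)

For every real normed space `X`:

(A) Markov type `p > 1` with a constant `K < 2 ^ (1 - 1 / p)` forces J-convexity in the sense
of James (hence superreflexivity).

(B) Markov type `p > 1` with `K ^ p < 3 * 2 ^ p / 8` forces uniform non-squareness.

(C) Markov type 2 with constant `K` bounds the von Neumann-Jordan constant by `2 * K ^ 2 - 1`.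

(D) Markov type 2 with constant `1` forces the parallelogram law.
-/

namespace Vale.Agent.Results.P125.SmallConstantOmnibus

open Vale.Agent.Lib.P125

theorem result (X : Type*) [NormedAddCommGroup X] [NormedSpace ℝ X] :
    (∀ p K : ℝ, 1 < p → 0 < K → HasMarkovType X p K → K < 2 ^ (1 - 1 / p) →
      ∃ (n : ℕ) (ε : ℝ), 2 ≤ n ∧ 0 < ε ∧ ∀ x : Fin n → X, (∀ i, ‖x i‖ ≤ 1) →
        ∃ k : Fin n, ‖∑ i, (if i ≤ k then x i else - x i)‖ ≤ n - ε) ∧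
    (∀ p K : ℝ, 1 < p → 0 < K → HasMarkovType X p K → K ^ p < 3 * 2 ^ p / 8 →
      ∃ δ : ℝ, 0 < δ ∧ ∀ x y : X, ‖x‖ ≤ 1 → ‖y‖ ≤ 1 →
        ‖x + y‖ ≤ 2 - δ ∨ ‖x - y‖ ≤ 2 - δ) ∧
    (∀ K : ℝ, HasMarkovType X 2 K → ∀ x y : X,
      ‖x + y‖ ^ 2 + ‖x - y‖ ^ 2 ≤ (2 * K ^ 2 - 1) * (2 * (‖x‖ ^ 2 + ‖y‖ ^ 2))) ∧
    (HasMarkovType X 2 1 → ∀ x y : X,
      ‖x + y‖ ^ 2 + ‖x - y‖ ^ 2 = 2 * (‖x‖ ^ 2 + ‖y‖ ^ 2)) :=
  ⟨fun _ _ hp hK hX hsmall => jconvex_of_lt hp hK hX hsmall,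
    fun _ _ hp _ hX hsmall => nonsquare_sharp hp hX hsmall,
    fun _ hX x y => nj_sharp hX x y,
    fun hX x y => parallelogram_sharp hX x y⟩

end Vale.Agent.Results.P125.SmallConstantOmnibus
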