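import Vale.Agent.Lib.P125.Sharp

/-!
# P125: Markov type 2 bounds the von Neumann-Jordan constant

If a real normed space has Markov type 2 with constant `K`, then for all `x`, `y`
`‖x + y‖ ^ 2 + ‖x - y‖ ^ 2 ≤ (2 * K ^ 2 - 1) * (2 * (‖x‖ ^ 2 + ‖y‖ ^ 2))`.
-/

namespace Vale.Agent.Results.P125.VonNeumannJordanSharp

open Vale.Agent.Lib.P125

theorem result (X : Type*) [NormedAddCommGroup X] [NormedSpace ℝ X] (K : ℝ)
    (hX : HasMarkovType X 2 K) (x y : X) :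
    ‖x + y‖ ^ 2 + ‖x - y‖ ^ 2 ≤ (2 * K ^ 2 - 1) * (2 * (‖x‖ ^ 2 + ‖y‖ ^ 2)) :=
  nj_sharp hX x y

end Vale.Agent.Results.P125.VonNeumannJordanSharp
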